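import Vale.Agent.Lib.P062.Diag

/-!
# The Snaky game in the plane: only an orthogonally adjacent first reply can save Breaker

Maker's first stone is `o`.  If Breaker's first reply `y` is not one of the four orthogonal
neighbours of `o`, then Maker has a winning strategy; in particular Maker wins against the diagonal
reply.  Consequently the unhandicapped game on `ℤ²` is a Maker win if and only if Maker wins the
single position with Maker at `(0, 0)`, Breaker at `(1, 0)` and Maker to move.  The proof runs a
verified checker on strategy certificates (about 380000 nodes in all) found by a distributed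
relevance-zone search.
-/

namespace Vale.Agent.Results.P062.Diagonal

open Vale.Agent.Lib.P062

theorem result :
    (∀ o y : Cell, y ≠ o → |y.1 - o.1| + |y.2 - o.2| ≠ 1 → MakerWins Set.univ IsCopy {o} {y}) ∧
    (MakerWins Set.univ IsCopy ∅ ∅ ↔ MakerWins Set.univ IsCopy {(0, 0)} {(1, 0)}) :=
  ⟨wins_nonorth winsVs_one_one, reduction_one winsVs_one_one⟩

end Vale.Agent.Results.P062.Diagonal
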