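import Vale.Agent.Lib.P062.Orth
import Vale.Agent.Lib.P062.Strategy

/-!
# Snaky is a winner, stated with an explicit Maker strategy and no auxiliary definitions

There is a strategy `τ` for Maker (a function of the list of Breaker's previous moves) such that in
every play on the empty board `ℤ²` in which Maker's `k`-th cell is `m k = τ [b 0, ..., b (k - 1)]`
and Breaker's cells `b 0, b 1, ...` are legal (each differs from all cells claimed before), there is
a number `n` of turns such that Maker's first `n` moves are legal and contain all six cells of an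
allowed copy `t + R(S)` of Snaky, `R` being a signed permutation matrix with entries `p q r s`.
-/

namespace Vale.Agent.Results.P062.MakerStrategy

open Vale.Agent.Lib.P062

theorem result :
    ∃ τ : List (ℤ × ℤ) → ℤ × ℤ, ∀ m b : ℕ → ℤ × ℤ,
      (∀ k, m k = τ ((List.range k).map b)) →
      (∀ n, (∀ k ≤ n, b n ≠ m k) ∧ ∀ k < n, b n ≠ b k) →
      ∃ n, (∀ k < n, (∀ j < k, m k ≠ m j) ∧ ∀ j < k, m k ≠ b j) ∧
        ∃ (t : ℤ × ℤ) (p q r s : ℤ),
          ((|p| = 1 ∧ q = 0 ∧ r = 0 ∧ |s| = 1) ∨ (p = 0 ∧ |q| = 1 ∧ |r| = 1 ∧ s = 0)) ∧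
          ∀ c ∈ ({(0, 0), (1, 0), (2, 0), (3, 0), (3, 1), (4, 1)} : Finset (ℤ × ℤ)),
            ∃ k < n, m k = (t.1 + (p * c.1 + q * c.2), t.2 + (r * c.1 + s * c.2)) :=
  strategy_form snaky_winner

end Vale.Agent.Results.P062.MakerStrategy
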