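import Vale.Agent.Lib.P062.Orth

/-!
# Snaky is a winner: Maker wins the Snaky achievement game on the empty plane

Maker, moving first on the initially empty board `ℤ²` with no handicap, has a winning strategy in
the achievement game for the hexomino Snaky.  By the earlier reduction (Maker wins against every
first reply that is not orthogonally adjacent to his first stone) only the position with Maker at
`(0, 0)` and Breaker at `(1, 0)` remained; that position is won by an explicit strategy tree of
about 730000 nodes with relevance zones, found by a distributed search and verified here by a
proved-correct checker evaluated in the kernel.
-/

namespace Vale.Agent.Results.P062.SnakyWinner

open Vale.Agent.Lib.P062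

theorem result : MakerWins Set.univ IsCopy ∅ ∅ :=
  makerWins_empty

end Vale.Agent.Results.P062.SnakyWinner
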