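import Vale.Agent.Lib.P062.Orth
import Vale.Agent.Lib.P062.Determined

/-!
# Snaky is a winner

In the (weak) achievement game for the hexomino Snaky on the board `ℤ²`, with no handicap, Maker has
a winning strategy; equivalently, Breaker has no strategy that prevents Maker from ever owning an
allowed copy.  Maker's first stone is at the origin.  Against a first reply that is not adjacent to
it, against the diagonal reply and against the orthogonally adjacent reply, explicit strategy trees
with relevance zones (found by a distributed computer search) are verified by checkers whose
soundness is proved in `Vale/Agent/Lib/P062` and which are evaluated by the kernel.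
-/

namespace Vale.Agent.Results.P062.Winner

open Vale.Agent.Lib.P062

theorem result :
    MakerWins Set.univ IsCopy ∅ ∅ ∧ ¬ BreakerWins Set.univ IsCopy :=
  ⟨snaky_winner, not_breakerWins_of_makerWins snaky_winner⟩

end Vale.Agent.Results.P062.Winner
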